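import Vale.Agent.P243.BangM

/-! Sections by parallel planes -/

namespace Vale.Agent.P243
open MeasureTheory Set Metric
open scoped RealInnerProductSpace

variable {V : Type*} [NormedAddCommGroup V] [InnerProductSpace ℝ V]

/-- section of `K` at height `z` in the direction `n` -/
def sec (K : Set V) (n : V) (z : ℝ) : Set V := {x | x ∈ K ∧ ⟪n, x⟫ = z}

lemma sec_convex {K : Set V} (hK : Convex ℝ K) (n : V) (z : ℝ) : Convex ℝ (sec K n z) := by
  intro x hx y hy a b ha hb hab
  refine ⟨hK hx.1 hy.1 ha hb hab, ?_⟩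
  rw [inner_add_right, inner_smul_right, inner_smul_right, hx.2, hy.2, ← add_mul, hab, one_mul]

lemma sec_compact {K : Set V} (hc : IsCompact K) (n : V) (z : ℝ) : IsCompact (sec K n z) := by
  have h1 : IsClosed {x : V | ⟪n, x⟫ = z} :=
    isClosed_eq (continuous_const.inner continuous_id) continuous_const
  exact hc.inter_right h1

/-- if the middle section has small width in the direction `m`, the projection is small -/
lemma proj_le {K : Set V} (hK : Convex ℝ K) (hc : IsCompact K) (n m : V) {z0 z1 ρ : ℝ}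
    (hz : z0 ≤ z1) (hρ : 0 ≤ ρ)
    (hb : ∀ x ∈ K, z0 ≤ ⟪n, x⟫ ∧ ⟪n, x⟫ ≤ z1)
    (hmid : ∀ x ∈ sec K n ((z0 + z1) / 2), ∀ y ∈ sec K n ((z0 + z1) / 2), ⟪m, x⟫ - ⟪m, y⟫ ≤ ρ)
    (hne : ∀ z ∈ Icc z0 z1, (sec K n z).Nonempty) :
    volume ((fun x => ((⟪n, x⟫, ⟪m, x⟫) : ℝ × ℝ)) '' K) ≤ ENNReal.ofReal ((z1 - z0) * ρ) := by
  set P := (fun x => ((⟪n, x⟫, ⟪m, x⟫) : ℝ × ℝ)) '' K with hP
  have hcont : Continuous (fun x : V => ((⟪n, x⟫, ⟪m, x⟫) : ℝ × ℝ)) :=
    (continuous_const.inner continuous_id).prodMk (continuous_const.inner continuous_id)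
  have hPc : IsCompact P := hc.image hcont
  have hPm : MeasurableSet P := hPc.isClosed.measurableSet
  have hsecP : ∀ z, Prod.mk z ⁻¹' P = (fun x => ⟪m, x⟫) '' sec K n z := by
    intro z
    ext s
    constructor
    · rintro ⟨x, hx, hxe⟩
      have h1 : ⟪n, x⟫ = z := congrArg Prod.fst hxe
      have h2 : ⟪m, x⟫ = s := congrArg Prod.snd hxe
      exact ⟨x, ⟨hx, h1⟩, h2⟩
    · rintro ⟨x, ⟨hx, h1⟩, h2⟩
      exact ⟨x, hx, Prod.ext h1 h2⟩
  let g : ℝ → ENNReal := fun z => volume (Prod.mk z ⁻¹' P)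
  have hvol : volume P = ∫⁻ z, g z := by
    rw [Measure.volume_eq_prod, Measure.prod_apply hPm]
  have hg0 : ∀ z, z ∉ Icc z0 z1 → g z = 0 := by
    intro z hz'
    have : Prod.mk z ⁻¹' P = ∅ := by
      rw [hsecP, image_eq_empty]
      ext x
      simp only [mem_empty_iff_false, iff_false]
      rintro ⟨hx, h1⟩
      apply hz'
      have := hb x hx
      rw [h1] at this
      exact this
    show volume (Prod.mk z ⁻¹' P) = 0
    rw [this]; exact measure_empty
  set c := (z0 + z1) / 2 with hcdef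
  have hpair : ∀ z ∈ Icc z0 z1, g z + g (z0 + z1 - z) ≤ ENNReal.ofReal (2 * ρ) := by
    intro z hz'
    have hz'' : z0 + z1 - z ∈ Icc z0 z1 := ⟨by linarith [hz'.2], by linarith [hz'.1]⟩
    -- extreme points
    have hext : ∀ w ∈ Icc z0 z1, ∃ x ∈ sec K n w, ∃ y ∈ sec K n w, ⟪m, y⟫ ≤ ⟪m, x⟫ ∧
        g w ≤ ENNReal.ofReal (⟪m, x⟫ - ⟪m, y⟫) := by
      intro w hw
      have hcm : ContinuousOn (fun x : V => ⟪m, x⟫) (sec K n w) :=
        (continuous_const.inner continuous_id).continuousOn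
      obtain ⟨x, hx, hx'⟩ := (sec_compact hc n w).exists_isMaxOn (hne w hw) hcm
      obtain ⟨y, hy, hy'⟩ := (sec_compact hc n w).exists_isMinOn (hne w hw) hcm
      refine ⟨x, hx, y, hy, hx' hy, ?_⟩
      show volume (Prod.mk w ⁻¹' P) ≤ _
      rw [hsecP, ← Real.volume_Icc]
      refine measure_mono ?_
      rintro s ⟨t, ht, rfl⟩
      exact ⟨hy' ht, hx' ht⟩
    obtain ⟨x, hx, y, hy, h0, h1⟩ := hext z hz'
    obtain ⟨x', hx', y', hy', h0', h2⟩ := hext (z0 + z1 - z) hz''
    have hmidpt : ∀ p ∈ sec K n z, ∀ q ∈ sec K n (z0 + z1 - z),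
        (1 / 2 : ℝ) • p + (1 / 2 : ℝ) • q ∈ sec K n c := by
      intro p hp q hq
      refine ⟨hK hp.1 hq.1 (by norm_num) (by norm_num) (by norm_num), ?_⟩
      rw [inner_add_right, inner_smul_right, inner_smul_right, hp.2, hq.2, hcdef]; ring
    have h3 := hmid _ (hmidpt x hx x' hx') _ (hmidpt y hy y' hy')
    rw [inner_add_right, inner_smul_right, inner_smul_right, inner_add_right, inner_smul_right,
      inner_smul_right] at h3
    calc g z + g (z0 + z1 - z) ≤ ENNReal.ofReal (⟪m, x⟫ - ⟪m, y⟫)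
          + ENNReal.ofReal (⟪m, x'⟫ - ⟪m, y'⟫) := add_le_add h1 h2
      _ = ENNReal.ofReal ((⟪m, x⟫ - ⟪m, y⟫) + (⟪m, x'⟫ - ⟪m, y'⟫)) :=
          (ENNReal.ofReal_add (by linarith) (by linarith)).symm
      _ ≤ ENNReal.ofReal (2 * ρ) := ENNReal.ofReal_le_ofReal (by linarith)
  -- symmetrize
  have hgm : Measurable g := measurable_measure_prodMk_left hPm
  have hsub : ∫⁻ z, g (z0 + z1 - z) = ∫⁻ z, g z := lintegral_sub_left_eq_self g (z0 + z1)
  have htwo : 2 * ∫⁻ z, g z ≤ 2 * ENNReal.ofReal ((z1 - z0) * ρ) := by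
    calc 2 * ∫⁻ z, g z = (∫⁻ z, g z) + ∫⁻ z, g (z0 + z1 - z) := by rw [hsub, two_mul]
      _ = ∫⁻ z, (g z + g (z0 + z1 - z)) := (lintegral_add_left hgm _).symm
      _ ≤ ∫⁻ z, (Icc z0 z1).indicator (fun _ => ENNReal.ofReal (2 * ρ)) z := by
          refine lintegral_mono (fun z => ?_)
          by_cases hz' : z ∈ Icc z0 z1
          · rw [indicator_of_mem hz']; exact hpair z hz'
          · rw [indicator_of_notMem hz', hg0 z hz', zero_add]
            have : z0 + z1 - z ∉ Icc z0 z1 := by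
              intro h
              apply hz'
              exact ⟨by linarith [h.2], by linarith [h.1]⟩
            rw [hg0 _ this]
      _ = ENNReal.ofReal (2 * ρ) * ENNReal.ofReal (z1 - z0) := by
          rw [lintegral_indicator_const measurableSet_Icc, Real.volume_Icc]
      _ = 2 * ENNReal.ofReal ((z1 - z0) * ρ) := by
          rw [← ENNReal.ofReal_mul (by positivity)]
          have : (2 : ENNReal) = ENNReal.ofReal 2 := by simp
          rw [this, ← ENNReal.ofReal_mul (by norm_num)]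
          congr 1; ring
  rw [hvol]
  exact (ENNReal.mul_le_mul_iff_right (by norm_num) (by norm_num)).1 htwo

/-- integral of the tent -/
lemma tent_integral {z0 z1 ρ : ℝ} (hz : z0 < z1) (hρ : 0 ≤ ρ) :
    ENNReal.ofReal ((z1 - z0) / 2 * ρ) ≤
      ∫⁻ z in Ioo z0 z1, ENNReal.ofReal ((1 - |z - (z0 + z1) / 2| / ((z1 - z0) / 2)) * ρ) := by
  have hh : 0 < (z1 - z0) / 2 := by linarith
  set c := (z0 + z1) / 2 with hc
  set r := (z1 - z0) / 2 with hr
  have hnn : ∀ z ∈ Ioo z0 z1, 0 ≤ (1 - |z - c| / r) * ρ := by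
    intro z hz'
    apply mul_nonneg _ hρ
    have : |z - c| ≤ r := by
      rw [abs_le]
      constructor
      · have := hz'.1; rw [hc, hr]; linarith
      · have := hz'.2; rw [hc, hr]; linarith
    rw [sub_nonneg, div_le_one hh]; exact this
  have hcont : Continuous (fun z : ℝ => (1 - |z - c| / r) * ρ) := by fun_prop
  have hint : IntegrableOn (fun z : ℝ => (1 - |z - c| / r) * ρ) (Ioo z0 z1) :=
    (hcont.integrableOn_Icc (a := z0) (b := z1)).mono_set Ioo_subset_Icc_self
  rw [← ofReal_integral_eq_lintegral_ofReal hint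
    ((ae_restrict_iff' measurableSet_Ioo).2 (Filter.Eventually.of_forall hnn))]
  apply ENNReal.ofReal_le_ofReal
  rw [integral_mul_const]
  apply mul_le_mul_of_nonneg_right _ hρ
  rw [← integral_Ioc_eq_integral_Ioo, ← intervalIntegral.integral_of_le hz.le]
  have hi : ∀ a b : ℝ, IntervalIntegrable (fun z : ℝ => 1 - |z - c| / r) volume a b := fun a b => by
    apply Continuous.intervalIntegrable; fun_prop
  rw [← intervalIntegral.integral_add_adjacent_intervals (hi z0 c) (hi c z1)]
  have e1 : ∫ z in z0..c, (1 - |z - c| / r) = ∫ z in z0..c, (1 + (z - c) / r) := by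
    apply intervalIntegral.integral_congr
    intro z hz'
    have h0 : z0 ≤ c := by rw [hc]; linarith
    rw [uIcc_of_le h0] at hz'
    have h1 : |z - c| = -(z - c) := abs_of_nonpos (by linarith [hz'.2])
    show 1 - |z - c| / r = 1 + (z - c) / r
    rw [h1]; ring
  have e2 : ∫ z in c..z1, (1 - |z - c| / r) = ∫ z in c..z1, (1 - (z - c) / r) := by
    apply intervalIntegral.integral_congr
    intro z hz'
    have h0 : c ≤ z1 := by rw [hc]; linarith
    rw [uIcc_of_le h0] at hz'
    have h1 : |z - c| = z - c := abs_of_nonneg (by linarith [hz'.1])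
    show 1 - |z - c| / r = 1 - (z - c) / r
    rw [h1]
  have f1 : ∫ z in z0..c, (1 + (z - c) / r) = r / 2 := by
    have hd : ∀ z ∈ uIcc z0 c, HasDerivAt (fun z : ℝ => z + (z - c) ^ 2 / (2 * r)) (1 + (z - c) / r) z := by
      intro z _
      have h1 : HasDerivAt (fun z : ℝ => (z - c) ^ 2 / (2 * r)) (2 * (z - c) * 1 / (2 * r)) z := by
        have := (((hasDerivAt_id z).sub_const c).pow 2).div_const (2 * r)
        simpa using this
      have h2 := (hasDerivAt_id z).add h1
      refine h2.congr_deriv ?_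
      field_simp
    rw [intervalIntegral.integral_eq_sub_of_hasDerivAt hd (by
      apply Continuous.intervalIntegrable; fun_prop)]
    have : z0 - c = -r := by rw [hc, hr]; ring
    rw [this, sub_self]
    have h3 : c = z0 + r := by rw [hc, hr]; ring
    rw [h3]; field_simp; ring
  have f2 : ∫ z in c..z1, (1 - (z - c) / r) = r / 2 := by
    have hd : ∀ z ∈ uIcc c z1, HasDerivAt (fun z : ℝ => z - (z - c) ^ 2 / (2 * r)) (1 - (z - c) / r) z := by
      intro z _
      have h1 : HasDerivAt (fun z : ℝ => (z - c) ^ 2 / (2 * r)) (2 * (z - c) * 1 / (2 * r)) z := by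
        have := (((hasDerivAt_id z).sub_const c).pow 2).div_const (2 * r)
        simpa using this
      have h2 := (hasDerivAt_id z).sub h1
      refine h2.congr_deriv ?_
      field_simp
    rw [intervalIntegral.integral_eq_sub_of_hasDerivAt hd (by
      apply Continuous.intervalIntegrable; fun_prop)]
    have : z1 - c = r := by rw [hc, hr]; ring
    rw [this, sub_self]
    have h3 : z1 = c + r := by rw [hc, hr]; ring
    rw [h3]; field_simp; ring
  rw [e1, e2, f1, f2]
  linarith

end Vale.Agent.P243
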