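import Mathlib

/-! Bang's plank lemma, for finitely many directions and arbitrary sets of offsets -/

namespace Vale.Agent.P243
open MeasureTheory Set Metric
open scoped RealInnerProductSpace

variable {V : Type*} [NormedAddCommGroup V] [InnerProductSpace ℝ V]

/-- intersections of sign translates -/
lemma translates {K : Set V} (hK : Convex ℝ K) (W : Submodule ℝ V) {ρ : ℝ} (hρ : 0 < ρ)
    (hW : ∀ v ∈ W, ‖v‖ ≤ ρ → ∃ a ∈ K, ∃ b ∈ K, v = a - b) {ι : Type*} [DecidableEq ι]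
    (a : ι → V) (ha : ∀ j, a j ∈ W) (J : Finset ι) (hs : ∑ j ∈ J, 2 * ‖a j‖ ≤ ρ) :
    ∃ p : V, ∀ ε : ι → ℝ, (∀ j, ε j = 1 ∨ ε j = -1) → ∀ k ∈ K,
      (1 - (∑ j ∈ J, 2 * ‖a j‖) / ρ) • k + p + ∑ j ∈ J, ε j • a j ∈ K := by
  induction J using Finset.induction_on with
  | empty =>
    refine ⟨0, fun ε _ k hk => ?_⟩
    simpa using hk
  | insert j J hj ih =>
    rw [Finset.sum_insert hj] at hs
    have hn : 0 ≤ ∑ j ∈ J, 2 * ‖a j‖ := Finset.sum_nonneg (fun i _ => by positivity)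
    have hn' : 0 ≤ ‖a j‖ := norm_nonneg _
    obtain ⟨p, hp⟩ := ih (by linarith)
    set T := ∑ j ∈ J, 2 * ‖a j‖ with hT
    set l := 2 * ‖a j‖ / ρ with hl
    have hl0 : 0 ≤ l := by positivity
    have htl : l ≤ 1 - T / ρ := by
      rw [hl, le_sub_iff_add_le, ← add_div, div_le_one hρ]; exact hs
    -- vector
    have hv : ∃ k1 ∈ K, ∃ k2 ∈ K, (2 : ℝ) • a j = l • (k1 - k2) := by
      by_cases h0 : a j = 0
      · obtain ⟨k1, h1, k2, h2, h3⟩ := hW 0 W.zero_mem (by rw [norm_zero]; exact hρ.le)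
        refine ⟨k1, h1, k2, h2, ?_⟩
        rw [← h3, h0]; simp
      · have hpos : 0 < ‖a j‖ := norm_pos_iff.2 h0
        obtain ⟨k1, h1, k2, h2, h3⟩ := hW ((ρ / ‖a j‖) • a j) (W.smul_mem _ (ha j)) (by
          rw [norm_smul, Real.norm_eq_abs, abs_of_pos (by positivity), div_mul_cancel₀ _ hpos.ne'])
        refine ⟨k1, h1, k2, h2, ?_⟩
        rw [← h3, smul_smul, hl]
        congr 1
        field_simp
    obtain ⟨k1, h1, k2, h2, h3⟩ := hv
    refine ⟨p + (l / 2) • (k1 + k2), fun ε hε k hk => ?_⟩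
    rw [Finset.sum_insert hj, Finset.sum_insert hj]
    have hts : (2 * ‖a j‖ + T) / ρ = l + T / ρ := by rw [hl, add_div]
    rw [hts]
    set t := 1 - T / ρ with ht
    have key : ∀ k' ∈ K, ∃ k'' ∈ K, (t - l) • k + l • k' = t • k'' := by
      intro k' hk'
      rcases eq_or_lt_of_le (show 0 ≤ t by linarith) with h0 | h0
      · refine ⟨k, hk, ?_⟩
        have h4 : l = 0 := by linarith
        rw [h4, ← h0]; simp
      · refine ⟨((t - l) / t) • k + (l / t) • k', ?_, ?_⟩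
        · exact hK hk hk' (div_nonneg (by linarith) h0.le) (div_nonneg hl0 h0.le) (by
            rw [← add_div]; field_simp; ring)
        · rw [smul_add, smul_smul, smul_smul, mul_div_cancel₀ _ h0.ne', mul_div_cancel₀ _ h0.ne']
    have ha2 : a j = (l / 2) • (k1 - k2) := by
      have : a j = (1 / 2 : ℝ) • ((2 : ℝ) • a j) := by rw [smul_smul]; norm_num
      rw [this, h3, smul_smul]; congr 1; ring
    rcases hε j with h4 | h4
    · obtain ⟨k'', h5, h6⟩ := key k1 h1
      have h7 := hp ε hε k'' h5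
      have e : (1 - (l + T / ρ)) • k + (p + (l / 2) • (k1 + k2)) + (ε j • a j + ∑ x ∈ J, ε x • a x)
          = t • k'' + p + ∑ x ∈ J, ε x • a x := by
        rw [← h6, h4, one_smul, ha2, ht]
        module
      rw [e]; exact h7
    · obtain ⟨k'', h5, h6⟩ := key k2 h2
      have h7 := hp ε hε k'' h5
      have e : (1 - (l + T / ρ)) • k + (p + (l / 2) • (k1 + k2)) + (ε j • a j + ∑ x ∈ J, ε x • a x)
          = t • k'' + p + ∑ x ∈ J, ε x • a x := by
        rw [← h6, h4, ha2, ht]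
        module
      rw [e]; exact h7

/-- Bang's lemma -/
lemma bang_lemma {ι : Type*} [Fintype ι] [DecidableEq ι] (m : ι → V) (hm : ∀ i, ‖m i‖ = 1)
    (w c : ι → ℝ) (hw : ∀ i, 0 < w i) (x : V) :
    ∃ ε : ι → ℝ, (∀ i, ε i = 1 ∨ ε i = -1) ∧
      ∀ i, w i / 2 ≤ |⟪m i, x + ∑ j, ε j • (w j / 2) • m j⟫ - c i| := by
  let sg : Bool → ℝ := fun b => if b then 1 else -1
  have hsg : ∀ b, sg b = 1 ∨ sg b = -1 := by
    intro b; cases b <;> simp [sg]
  have hsn : ∀ b, sg (!b) = - sg b := by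
    intro b; cases b <;> simp [sg]
  let y : (ι → Bool) → V := fun s => x + ∑ j, sg (s j) • (w j / 2) • m j
  let F : (ι → Bool) → ℝ := fun s => ‖y s‖ ^ 2 - 2 * ∑ j, sg (s j) * (w j / 2) * c j
  obtain ⟨s, hs⟩ := Finite.exists_max F
  refine ⟨fun i => sg (s i), fun i => hsg (s i), fun i => ?_⟩
  let s' := Function.update s i (!s i)
  have h1 := hs s'
  have hy : y s' = y s - (2 * sg (s i)) • (w i / 2) • m i := by
    have e : y s' - y s = ∑ j, (sg (s' j) - sg (s j)) • (w j / 2) • m j := by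
      show (x + ∑ j, sg (s' j) • (w j / 2) • m j) - (x + ∑ j, sg (s j) • (w j / 2) • m j) = _
      rw [add_sub_add_left_eq_sub, ← Finset.sum_sub_distrib]
      refine Finset.sum_congr rfl (fun j _ => ?_)
      rw [sub_smul]
    have e2 : ∑ j, (sg (s' j) - sg (s j)) • (w j / 2) • m j = (-(2 * sg (s i))) • (w i / 2) • m i := by
      rw [Finset.sum_eq_single i]
      · have : s' i = !s i := by simp [s']
        rw [this, hsn]; congr 1; ring
      · intro j _ hj
        have : s' j = s j := by simp [s', hj]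
        rw [this, sub_self, zero_smul]
      · intro h; exact absurd (Finset.mem_univ i) h
    rw [e2] at e
    rw [sub_eq_iff_eq_add] at e
    rw [e, neg_smul]; abel
  have hc : ∑ j, sg (s' j) * (w j / 2) * c j = ∑ j, sg (s j) * (w j / 2) * c j
      - 2 * sg (s i) * (w i / 2) * c i := by
    have e : ∑ j, sg (s' j) * (w j / 2) * c j - ∑ j, sg (s j) * (w j / 2) * c j
        = - (2 * sg (s i) * (w i / 2) * c i) := by
      rw [← Finset.sum_sub_distrib, Finset.sum_eq_single i]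
      · have : s' i = !s i := by simp [s']
        rw [this, hsn]; ring
      · intro j _ hj
        have : s' j = s j := by simp [s', hj]
        rw [this, sub_self]
      · intro h; exact absurd (Finset.mem_univ i) h
    linarith
  have hn : ‖y s'‖ ^ 2 = ‖y s‖ ^ 2 - 2 * (2 * sg (s i) * (w i / 2)) * ⟪m i, y s⟫
      + (2 * sg (s i) * (w i / 2)) ^ 2 := by
    rw [hy, @norm_sub_sq_real, smul_smul, inner_smul_right, norm_smul, hm i, mul_one,
      Real.norm_eq_abs, sq_abs, real_inner_comm]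
    ring
  have h2 : F s' ≤ F s := h1
  have h3 : ‖y s'‖ ^ 2 - 2 * ∑ j, sg (s' j) * (w j / 2) * c j
      ≤ ‖y s‖ ^ 2 - 2 * ∑ j, sg (s j) * (w j / 2) * c j := h2
  rw [hn, hc] at h3
  have hwi := hw i
  have h4 : sg (s i) ^ 2 = 1 := by rcases hsg (s i) with h | h <;> rw [h] <;> norm_num
  -- 4 (w/2)^2 ≤ 4 σ (w/2) (⟪m,y⟫ - c)
  have h5 : w i / 2 * (w i / 2) ≤ w i / 2 * (sg (s i) * (⟪m i, y s⟫ - c i)) := by
    have h6 : (2 * sg (s i) * (w i / 2)) ^ 2 = w i ^ 2 := by
      have : (2 * sg (s i) * (w i / 2)) ^ 2 = sg (s i) ^ 2 * w i ^ 2 := by ring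
      rw [this, h4, one_mul]
    rw [h6] at h3
    nlinarith
  have h7 : w i / 2 ≤ sg (s i) * (⟪m i, y s⟫ - c i) := le_of_mul_le_mul_left h5 (by positivity)
  have h8 : sg (s i) * (⟪m i, y s⟫ - c i) ≤ |⟪m i, y s⟫ - c i| := by
    rcases hsg (s i) with h | h
    · rw [h, one_mul]; exact le_abs_self _
    · rw [h, neg_one_mul]; exact neg_le_abs _
  exact le_trans h7 h8

end Vale.Agent.P243
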