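import Vale.Agent.P243.Bang

/-! Bang's plank theorem for arbitrary sets of offsets (outer measure) -/

namespace Vale.Agent.P243
open MeasureTheory Set Metric
open scoped RealInnerProductSpace

variable {V : Type*} [NormedAddCommGroup V] [InnerProductSpace ℝ V]

/-- a finite family of grid planks covering `K` has total width at least `ρ` -/
lemma bang_grid {K : Set V} (hK : Convex ℝ K) (hne : K.Nonempty) (W : Submodule ℝ V) {ρ : ℝ}
    (hρ : 0 < ρ) (hW : ∀ v ∈ W, ‖v‖ ≤ ρ → ∃ a ∈ K, ∃ b ∈ K, v = a - b)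
    {J : Type*} [Fintype J] (m : J → V) (hm : ∀ i, ‖m i‖ = 1) (hmW : ∀ i, m i ∈ W)
    (c : J → ℝ) {g : ℝ} (hcov : ∀ x ∈ K, ∃ j, |⟪m j, x⟫ - c j| ≤ g / 2) :
    ρ ≤ Fintype.card J * g := by
  classical
  by_contra hlt
  rw [not_le] at hlt
  obtain ⟨x0, hx0⟩ := hne
  obtain ⟨j0, _⟩ := hcov x0 hx0
  have : Nonempty J := ⟨j0⟩
  have hcard : (0 : ℝ) < Fintype.card J := by exact_mod_cast Fintype.card_pos
  set w := ρ / Fintype.card J with hw
  have hwpos : 0 < w := by positivity
  have hgw : g < w := by rw [hw, lt_div_iff₀ hcard]; linarith [mul_comm g (Fintype.card J : ℝ)]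
  have hnorm : ∀ j, ‖(w / 2) • m j‖ = w / 2 := by
    intro j; rw [norm_smul, hm j, mul_one, Real.norm_eq_abs, abs_of_pos (by positivity)]
  have hsum : ∑ j : J, 2 * ‖(w / 2) • m j‖ = ρ := by
    simp_rw [hnorm]
    rw [Finset.sum_const, Finset.card_univ, nsmul_eq_mul, hw]
    field_simp
  obtain ⟨p, hp⟩ := translates hK W hρ hW (fun j => (w / 2) • m j)
    (fun j => W.smul_mem _ (hmW j)) Finset.univ hsum.le
  obtain ⟨ε, h1, h2⟩ := bang_lemma m hm (fun _ => w) c (fun _ => hwpos) p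
  have h3 := hp ε h1 x0 hx0
  rw [hsum, div_self hρ.ne', sub_self, zero_smul, zero_add] at h3
  obtain ⟨j, hj⟩ := hcov _ h3
  have h4 := h2 j
  linarith

theorem bang_measurable {K : Set V} (hK : Convex ℝ K) (hc : IsCompact K) (hne : K.Nonempty)
    (W : Submodule ℝ V) {ρ : ℝ} (hρ : 0 < ρ)
    (hW : ∀ v ∈ W, ‖v‖ ≤ ρ → ∃ a ∈ K, ∃ b ∈ K, v = a - b)
    {ι : Type*} [Fintype ι] (m : ι → V) (hm : ∀ i, ‖m i‖ = 1) (hmW : ∀ i, m i ∈ W)
    (S : ι → Set ℝ) (hcov : ∀ x ∈ K, ∃ i, ⟪m i, x⟫ ∈ S i) :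
    ENNReal.ofReal ρ ≤ ∑ i, volume (S i) := by
  classical
  by_contra hlt
  rw [not_le] at hlt
  obtain ⟨r, hr0, hr⟩ := ENNReal.lt_iff_exists_add_pos_lt.1 hlt
  have hfin : ∀ i, volume (S i) ≠ ⊤ := by
    intro i h
    have h1 : volume (S i) ≤ ∑ i, volume (S i) :=
      Finset.single_le_sum (f := fun i => volume (S i)) (fun i _ => bot_le) (Finset.mem_univ i)
    rw [h] at h1
    have h2 := lt_of_le_of_lt h1 hlt
    exact absurd h2 (by simp)
  set δ : ENNReal := (r : ENNReal) / (Fintype.card ι + 1) with hδ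
  have hδ0 : δ ≠ 0 := by
    rw [hδ]
    refine (ENNReal.div_pos ?_ ?_).ne'
    · exact_mod_cast hr0.ne'
    · exact ENNReal.add_ne_top.2 ⟨ENNReal.natCast_ne_top _, ENNReal.one_ne_top⟩
  choose U hU1 hU2 hU3 using fun i => Set.exists_isOpen_lt_add (S i) (hfin i) hδ0
  have hUsum : ∑ i, volume (U i) < ENNReal.ofReal ρ := by
    calc ∑ i, volume (U i) ≤ ∑ i, (volume (S i) + δ) := Finset.sum_le_sum (fun i _ => (hU3 i).le)
      _ = ∑ i, volume (S i) + Fintype.card ι * δ := by
          rw [Finset.sum_add_distrib, Finset.sum_const, Finset.card_univ, nsmul_eq_mul]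
      _ ≤ ∑ i, volume (S i) + r := by
          gcongr
          calc (Fintype.card ι : ENNReal) * δ ≤ (Fintype.card ι + 1) * δ := by
                gcongr; exact le_self_add
            _ = r := by
                rw [hδ]
                exact ENNReal.mul_div_cancel (by simp) (ENNReal.add_ne_top.2
                  ⟨ENNReal.natCast_ne_top _, ENNReal.one_ne_top⟩)
      _ < ENNReal.ofReal ρ := hr
  -- Lebesgue number
  have hopen : ∀ i, IsOpen {x : V | ⟪m i, x⟫ ∈ U i} := fun i =>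
    (hU2 i).preimage (continuous_const.inner continuous_id)
  obtain ⟨δ', hδ', hL⟩ := lebesgue_number_lemma_of_metric hc hopen (by
    intro x hx
    obtain ⟨i, hi⟩ := hcov x hx
    exact mem_iUnion.2 ⟨i, hU1 i hi⟩)
  set g := δ' / 2 with hg
  have hg0 : 0 < g := by positivity
  have hLeb : ∀ x ∈ K, ∃ i, ∀ s : ℝ, |s - ⟪m i, x⟫| < δ' → s ∈ U i := by
    intro x hx
    obtain ⟨i, hi⟩ := hL x hx
    refine ⟨i, fun s hs => ?_⟩
    have h1 : x + (s - ⟪m i, x⟫) • m i ∈ ball x δ' := by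
      rw [mem_ball, dist_eq_norm, add_sub_cancel_left, norm_smul, hm i, mul_one]
      exact hs
    have h2 : ⟪m i, x + (s - ⟪m i, x⟫) • m i⟫ ∈ U i := hi h1
    rw [inner_add_right, inner_smul_right, real_inner_self_eq_norm_sq, hm i] at h2
    have e : ⟪m i, x⟫ + (s - ⟪m i, x⟫) * 1 ^ 2 = s := by ring
    rwa [e] at h2
  -- bound
  obtain ⟨R, hR⟩ := hc.isBounded.exists_norm_le
  have hRb : ∀ x ∈ K, ∀ i, |⟪m i, x⟫| ≤ R := by
    intro x hx i
    calc |⟪m i, x⟫| ≤ ‖m i‖ * ‖x‖ := abs_real_inner_le_norm _ _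
      _ ≤ R := by rw [hm i, one_mul]; exact hR x hx
  let Nn : ℤ := ⌈R / g⌉ + 1
  let cell : ℤ → Set ℝ := fun k => Ico (k * g) (k * g + g)
  let JF : Finset (ι × ℤ) := (Finset.univ ×ˢ Finset.Icc (-Nn) Nn).filter (fun p => cell p.2 ⊆ U p.1)
  have hcov2 : ∀ x ∈ K, ∃ j : JF, |⟪m j.1.1, x⟫ - (j.1.2 * g + g / 2)| ≤ g / 2 := by
    intro x hx
    obtain ⟨i, hi⟩ := hLeb x hx
    set s := ⟪m i, x⟫ with hs
    set k := ⌊s / g⌋ with hk
    have h1 : (k : ℝ) * g ≤ s := by
      have := Int.floor_le (s / g)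
      rw [le_div_iff₀ hg0] at this
      exact this
    have h2 : s < k * g + g := by
      have := Int.lt_floor_add_one (s / g)
      rw [div_lt_iff₀ hg0] at this
      linarith [add_mul (k : ℝ) 1 g]
    have hsub : cell k ⊆ U i := by
      intro y hy
      have hy1 : (k : ℝ) * g ≤ y := hy.1
      have hy2 : y < k * g + g := hy.2
      apply hi
      rw [abs_lt]
      constructor <;> linarith
    have hkN : k ∈ Finset.Icc (-Nn) Nn := by
      have hb := abs_le.1 (hRb x hx i)
      have h3 : R / g ≤ ⌈R / g⌉ := Int.le_ceil _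
      have h4 : s / g ≤ R / g := by gcongr; exact hb.2
      have h5 : -(R / g) ≤ s / g := by rw [← neg_div]; gcongr; exact hb.1
      have h6 := Int.floor_le (s / g)
      have h7 := Int.lt_floor_add_one (s / g)
      rw [Finset.mem_Icc]
      constructor
      · have : ((-Nn : ℤ) : ℝ) ≤ (k : ℝ) := by
          show ((-(⌈R / g⌉ + 1) : ℤ) : ℝ) ≤ (k : ℝ)
          push_cast
          have h7' : s / g < (k : ℝ) + 1 := h7
          linarith
        exact_mod_cast this
      · have : (k : ℝ) ≤ ((Nn : ℤ) : ℝ) := by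
          show (k : ℝ) ≤ ((⌈R / g⌉ + 1 : ℤ) : ℝ)
          push_cast
          have h6' : (k : ℝ) ≤ s / g := h6
          linarith
        exact_mod_cast this
    have hmem : (i, k) ∈ JF := by
      rw [Finset.mem_filter, Finset.mem_product]
      exact ⟨⟨Finset.mem_univ _, hkN⟩, hsub⟩
    refine ⟨⟨(i, k), hmem⟩, ?_⟩
    show |s - (k * g + g / 2)| ≤ g / 2
    rw [abs_le]
    constructor <;> linarith
  have hgrid := bang_grid hK hne W hρ hW (J := JF) (fun j => m j.1.1) (fun j => hm _)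
    (fun j => hmW _) (fun j => j.1.2 * g + g / 2) hcov2
  rw [Fintype.card_coe] at hgrid
  -- total length of the cells
  have hlen : ENNReal.ofReal (JF.card * g) ≤ ∑ i, volume (U i) := by
    have hcellv : ∀ k : ℤ, volume (cell k) = ENNReal.ofReal g := by
      intro k
      show volume (Ico ((k : ℝ) * g) (k * g + g)) = _
      rw [Real.volume_Ico]; congr 1; ring
    have hdisj : ∀ k l : ℤ, k ≠ l → Disjoint (cell k) (cell l) := by
      intro k l hkl
      rw [Set.disjoint_left]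
      intro y hy1 hy2
      have a1 : (k : ℝ) * g ≤ y := hy1.1
      have a2 : y < k * g + g := hy1.2
      have a3 : (l : ℝ) * g ≤ y := hy2.1
      have a4 : y < l * g + g := hy2.2
      rcases lt_or_gt_of_ne hkl with h | h
      · have : (k : ℝ) + 1 ≤ l := by exact_mod_cast h
        nlinarith
      · have : (l : ℝ) + 1 ≤ k := by exact_mod_cast h
        nlinarith
    have hcard : ((JF.card * g : ℝ)) = ∑ i, ((((Finset.Icc (-Nn) Nn).filter
        (fun k => cell k ⊆ U i)).card : ℝ) * g) := by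
      rw [← Finset.sum_mul, ← Nat.cast_sum]
      congr 2
      rw [← Finset.card_sigma]
      refine Finset.card_bij' (fun p _ => ⟨p.1, p.2⟩) (fun p _ => (p.1, p.2)) ?_ ?_ ?_ ?_
      · intro p hp
        rw [Finset.mem_filter, Finset.mem_product] at hp
        rw [Finset.mem_sigma, Finset.mem_filter]
        exact ⟨Finset.mem_univ _, hp.1.2, hp.2⟩
      · intro p hp
        rw [Finset.mem_sigma, Finset.mem_filter] at hp
        rw [Finset.mem_filter, Finset.mem_product]
        exact ⟨⟨Finset.mem_univ _, hp.2.1⟩, hp.2.2⟩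
      · intro p _; rfl
      · intro p _; rfl
    rw [hcard, ENNReal.ofReal_sum_of_nonneg (fun i _ => by positivity)]
    refine Finset.sum_le_sum (fun i _ => ?_)
    have h1 : volume (⋃ k ∈ (Finset.Icc (-Nn) Nn).filter (fun k => cell k ⊆ U i), cell k)
        = ∑ k ∈ (Finset.Icc (-Nn) Nn).filter (fun k => cell k ⊆ U i), volume (cell k) :=
      measure_biUnion_finset (fun k _ l _ hkl => hdisj k l hkl) (fun k _ => measurableSet_Ico)
    have h2 : volume (⋃ k ∈ (Finset.Icc (-Nn) Nn).filter (fun k => cell k ⊆ U i), cell k)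
        ≤ volume (U i) := by
      refine measure_mono (iUnion₂_subset (fun k hk => ?_))
      exact (Finset.mem_filter.1 hk).2
    rw [h1] at h2
    simp_rw [hcellv] at h2
    rw [Finset.sum_const, nsmul_eq_mul] at h2
    rw [ENNReal.ofReal_mul (by positivity), ENNReal.ofReal_natCast]
    exact h2
  have hcontra : ENNReal.ofReal ρ ≤ ∑ i, volume (U i) :=
    (ENNReal.ofReal_le_ofReal hgrid).trans hlen
  exact absurd hUsum (not_lt.2 hcontra)

end Vale.Agent.P243
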