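import Vale.Agent.P243.Area

/-! The dichotomy -/

namespace Vale.Agent.P243
open MeasureTheory Set Metric
open scoped RealInnerProductSpace Pointwise

variable {V : Type*} [NormedAddCommGroup V] [InnerProductSpace ℝ V]

lemma seg_sec {K : Set V} (hK : Convex ℝ K) {n x0 x1 : V} (h0 : x0 ∈ K) (h1 : x1 ∈ K)
    (hz : ⟪n, x0⟫ < ⟪n, x1⟫) : ∀ z ∈ Icc ⟪n, x0⟫ ⟪n, x1⟫, (sec K n z).Nonempty := by
  intro z hz'
  set a := ⟪n, x0⟫ with ha
  set b := ⟪n, x1⟫ with hb
  have hd : 0 < b - a := by linarith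
  refine ⟨((b - z) / (b - a)) • x0 + ((z - a) / (b - a)) • x1, ?_, ?_⟩
  · exact hK h0 h1 (div_nonneg (by linarith [hz'.2]) hd.le) (div_nonneg (by linarith [hz'.1]) hd.le)
      (by rw [← add_div]; field_simp; ring)
  · rw [inner_add_right, inner_smul_right, inner_smul_right, ← ha, ← hb]
    field_simp
    ring

theorem dichotomy {K : Set V} (hK : Convex ℝ K) (hc : IsCompact K) {n x0 x1 : V}
    (h0 : x0 ∈ K) (h1 : x1 ∈ K) (hz : ⟪n, x0⟫ < ⟪n, x1⟫)
    (hb : ∀ x ∈ K, ⟪n, x0⟫ ≤ ⟪n, x⟫ ∧ ⟪n, x⟫ ≤ ⟪n, x1⟫)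
    {ι : Type*} [Fintype ι] (m : ι → V) (hm : ∀ i, ‖m i‖ = 1) (hmn : ∀ i, ⟪n, m i⟫ = 0)
    (B : ι → Set (ℝ × ℝ)) (hcov : ∀ x ∈ K, ∃ i, ((⟪n, x⟫, ⟪m i, x⟫) : ℝ × ℝ) ∈ B i)
    {ρ : ℝ} (hρ : 0 < ρ) :
    ENNReal.ofReal ((⟪n, x1⟫ - ⟪n, x0⟫) / 2 * ρ) ≤ ∑ i, volume (B i) ∨
      ∃ m' : V, ‖m'‖ = 1 ∧ ⟪n, m'⟫ = 0 ∧
        volume ((fun x => ((⟪n, x⟫, ⟪m', x⟫) : ℝ × ℝ)) '' K)
          ≤ ENNReal.ofReal ((⟪n, x1⟫ - ⟪n, x0⟫) * ρ) := by
  set z0 := ⟪n, x0⟫ with hz0
  set z1 := ⟪n, x1⟫ with hz1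
  set c := (z0 + z1) / 2 with hcd
  have hne := seg_sec hK h0 h1 hz
  have hcI : c ∈ Icc z0 z1 := ⟨by rw [hcd]; linarith, by rw [hcd]; linarith⟩
  have hKc := hne c hcI
  let W : Submodule ℝ V := (Submodule.span ℝ {n})ᗮ
  have hWmem : ∀ v, v ∈ W ↔ ⟪n, v⟫ = 0 := fun v =>
    Submodule.mem_orthogonal_singleton_iff_inner_right
  by_cases hball : ∀ v ∈ W, ‖v‖ ≤ ρ → ∃ a ∈ sec K n c, ∃ b ∈ sec K n c, v = a - b
  · left
    set r := (z1 - z0) / 2 with hr
    have hr0 : 0 < r := by rw [hr]; linarith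
    have hkey : ∀ z ∈ Ioo z0 z1, ENNReal.ofReal ((1 - |z - c| / r) * ρ) ≤
        ∑ i, volume (Prod.mk z ⁻¹' (toMeasurable volume (B i))) := by
      intro z hz'
      set t := |z - c| / r with ht
      have ht0 : 0 ≤ t := by positivity
      have ht1 : t < 1 := by
        rw [ht, div_lt_one hr0, abs_lt]
        constructor
        · have := hz'.1; rw [hcd, hr]; linarith
        · have := hz'.2; rw [hcd, hr]; linarith
      have hρ' : 0 < (1 - t) * ρ := mul_pos (by linarith) hρ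
      -- end point
      have hend : ∃ xe ∈ K, (1 - t) * c + t * ⟪n, xe⟫ = z := by
        have htr : t * r = |z - c| := by rw [ht]; field_simp
        rcases le_total c z with hcz | hcz
        · refine ⟨x1, h1, ?_⟩
          rw [← hz1]
          have e1 : z1 = c + r := by rw [hcd, hr]; ring
          have e2 : |z - c| = z - c := abs_of_nonneg (by linarith)
          rw [e1]
          have : (1 - t) * c + t * (c + r) = c + t * r := by ring
          rw [this, htr, e2]; ring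
        · refine ⟨x0, h0, ?_⟩
          rw [← hz0]
          have e1 : z0 = c - r := by rw [hcd, hr]; ring
          have e2 : |z - c| = -(z - c) := abs_of_nonpos (by linarith)
          rw [e1]
          have : (1 - t) * c + t * (c - r) = c - t * r := by ring
          rw [this, htr, e2]; ring
      obtain ⟨xe, hxe, hxz⟩ := hend
      have hmap : ∀ a ∈ sec K n c, (1 - t) • a + t • xe ∈ sec K n z := by
        intro a ha
        refine ⟨hK ha.1 hxe (by linarith) ht0 (by ring), ?_⟩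
        rw [inner_add_right, inner_smul_right, inner_smul_right, ha.2]; exact hxz
      have hWz : ∀ v ∈ W, ‖v‖ ≤ (1 - t) * ρ → ∃ a ∈ sec K n z, ∃ b ∈ sec K n z, v = a - b := by
        intro v hv hvn
        have h1t : 0 < 1 - t := by linarith
        obtain ⟨a, ha, b, hb', hab⟩ := hball ((1 - t)⁻¹ • v) (W.smul_mem _ hv) (by
          rw [norm_smul, Real.norm_eq_abs, abs_of_pos (inv_pos.2 h1t), inv_mul_le_iff₀ h1t]
          exact hvn)
        refine ⟨_, hmap a ha, _, hmap b hb', ?_⟩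
        have e : v = (1 - t) • (a - b) := by
          rw [← hab, smul_smul, mul_inv_cancel₀ h1t.ne', one_smul]
        rw [e]; module
      refine bang_measurable (sec_convex hK n z) (sec_compact hc n z)
        (hne z (Ioo_subset_Icc_self hz')) W hρ' hWz m hm (fun i => (hWmem _).2 (hmn i)) _ ?_
      intro x hx
      obtain ⟨i, hi⟩ := hcov x hx.1
      refine ⟨i, ?_⟩
      show ((z, ⟪m i, x⟫) : ℝ × ℝ) ∈ toMeasurable volume (B i)
      rw [hx.2] at hi
      exact subset_toMeasurable _ _ hi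
    calc ENNReal.ofReal ((z1 - z0) / 2 * ρ)
        ≤ ∫⁻ z in Ioo z0 z1, ENNReal.ofReal ((1 - |z - c| / r) * ρ) := tent_integral hz hρ.le
      _ ≤ ∫⁻ z in Ioo z0 z1, ∑ i, volume (Prod.mk z ⁻¹' (toMeasurable volume (B i))) :=
          setLIntegral_mono' measurableSet_Ioo hkey
      _ ≤ ∫⁻ z, ∑ i, volume (Prod.mk z ⁻¹' (toMeasurable volume (B i))) :=
          setLIntegral_le_lintegral _ _
      _ = ∑ i, ∫⁻ z, volume (Prod.mk z ⁻¹' (toMeasurable volume (B i))) :=
          lintegral_finsetSum _ (fun i _ =>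
            measurable_measure_prodMk_left (measurableSet_toMeasurable _ _))
      _ = ∑ i, volume (B i) := by
          refine Finset.sum_congr rfl (fun i _ => ?_)
          rw [← measure_toMeasurable (B i)]
          conv_rhs => rw [Measure.volume_eq_prod]
          rw [Measure.prod_apply (measurableSet_toMeasurable _ _)]
          rfl
  · right
    push Not at hball
    obtain ⟨v, hv, hvn, hvD⟩ := hball
    have hDc : IsCompact (sec K n c - sec K n c) := by
      rw [sub_eq_add_neg]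
      exact IsCompact.add (sec_compact hc n c) (IsCompact.neg (sec_compact hc n c))
    have hDx : Convex ℝ (sec K n c - sec K n c) := (sec_convex hK n c).sub (sec_convex hK n c)
    have hDn : (sec K n c - sec K n c).Nonempty := hKc.sub hKc
    obtain ⟨p, hp, hpm⟩ := exists_norm_eq_iInf_of_complete_convex hDn hDc.isComplete hDx v
    rw [norm_eq_iInf_iff_real_inner_le_zero hDx hp] at hpm
    obtain ⟨a, ha, b, hb', hab⟩ := hp
    have hab' : a - b = p := hab
    have hyn : v - p ≠ 0 := by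
      intro h
      rw [sub_eq_zero] at h
      exact hvD a ha b hb' (by rw [h, hab'])
    have hyp : 0 < ‖v - p‖ := norm_pos_iff.2 hyn
    have hny : ⟪n, v - p⟫ = 0 := by
      rw [inner_sub_right, (hWmem v).1 hv, ← hab', inner_sub_right, ha.2, hb'.2]; ring
    refine ⟨(‖v - p‖)⁻¹ • (v - p), ?_, ?_, ?_⟩
    · rw [norm_smul, norm_inv, norm_norm, inv_mul_cancel₀ hyp.ne']
    · rw [inner_smul_right, hny, mul_zero]
    · refine proj_le hK hc n _ hz.le hρ.le hb ?_ hne
      intro x hx y hy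
      have hd : x - y ∈ sec K n c - sec K n c := ⟨x, hx, y, hy, rfl⟩
      have h2 := hpm (x - y) hd
      rw [inner_smul_left, inner_smul_left]
      simp only [conj_trivial]
      rw [← mul_sub, ← inner_sub_right, inv_mul_le_iff₀ hyp]
      have h3 : ⟪v - p, x - y - p⟫ = ⟪v - p, x - y⟫ - ⟪v - p, p⟫ := inner_sub_right _ _ _
      have h4 : ⟪v - p, v⟫ - ⟪v - p, p⟫ = ‖v - p‖ ^ 2 := by
        rw [← inner_sub_right, real_inner_self_eq_norm_sq]
      have h5 : ⟪v - p, v⟫ ≤ ‖v - p‖ * ‖v‖ := real_inner_le_norm _ _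
      have h6 : ‖v - p‖ * ‖v‖ ≤ ‖v - p‖ * ρ := mul_le_mul_of_nonneg_left hvn hyp.le
      have h7 := sq_nonneg ‖v - p‖
      linarith

end Vale.Agent.P243
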