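import Vale.Agent.P243.Core

/-! Cylinders in three-space; change of frame; the main theorem -/

namespace Vale.Agent.P243
open MeasureTheory Set Metric
open scoped RealInnerProductSpace

/-- Euclidean three-space -/
abbrev E3 : Type := EuclideanSpace ℝ (Fin 3)

/-- The data of a cylinder: the unit axis direction `u`, an orthonormal frame `e, f` of the
plane `u^⊥`, and the base, a subset of that plane written in the coordinates of the frame. -/
structure Cylinder where
  u : E3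
  e : E3
  f : E3
  orth : Orthonormal ℝ ![u, e, f]
  base : Set (ℝ × ℝ)

/-- the points of the cylinder: all `x` whose orthogonal projection to `u^⊥` is in the base -/
def Cylinder.carrier (C : Cylinder) : Set E3 := {x | (⟪C.e, x⟫, ⟪C.f, x⟫) ∈ C.base}

/-- the planar Lebesgue (outer) measure of the base -/
noncomputable def Cylinder.area (C : Cylinder) : ENNReal := volume C.base

/-- the smallest area of an orthogonal projection of `K` to a plane: the infimum over all
orthonormal frames `e, f` of planes of the area of the projection, in frame coordinates -/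
noncomputable def Amin (K : Set E3) : ENNReal :=
  ⨅ (e : E3) (f : E3) (_ : Orthonormal ℝ ![e, f]), volume ((fun x => (⟪e, x⟫, ⟪f, x⟫)) '' K)

/-- rotation of the plane -/
noncomputable def rotm (α β : ℝ) : (ℝ × ℝ) →ₗ[ℝ] (ℝ × ℝ) where
  toFun p := (α * p.1 - β * p.2, β * p.1 + α * p.2)
  map_add' p q := by ext <;> simp <;> ring
  map_smul' c p := by ext <;> simp <;> ring

lemma rotm_det (α β : ℝ) : LinearMap.det (rotm α β) = α ^ 2 + β ^ 2 := by
  rw [← LinearMap.det_toMatrix (Module.Basis.finTwoProd ℝ), Matrix.det_fin_two]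
  simp [LinearMap.toMatrix_apply, rotm]
  ring

lemma rot_volume {α β : ℝ} (h : α ^ 2 + β ^ 2 = 1) (B : Set (ℝ × ℝ)) :
    volume ((rotm α β) ⁻¹' B) = volume B := by
  have hd := rotm_det α β
  rw [h] at hd
  rw [Measure.addHaar_preimage_linearMap volume (by rw [hd]; norm_num), hd]
  simp

lemma expand {u e f : E3} (ho : Orthonormal ℝ ![u, e, f]) {n : E3} (hun : ⟪u, n⟫ = 0) :
    n = ⟪e, n⟫ • e + ⟪f, n⟫ • f := by
  have hsp : Submodule.span ℝ (range ![u, e, f]) = ⊤ :=
    ho.linearIndependent.span_eq_top_of_card_eq_finrank (by simp)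
  let b := OrthonormalBasis.mk ho hsp.ge
  have h1 := b.sum_repr' n
  rw [Fin.sum_univ_three] at h1
  have hb : ∀ i, b i = ![u, e, f] i := fun i => by simp [b]
  rw [hb, hb, hb] at h1
  simp only [Matrix.cons_val_zero, Matrix.cons_val_one, Matrix.cons_val] at h1
  rw [hun, zero_smul, zero_add] at h1
  exact h1.symm

lemma ortho_facts {u e f : E3} (ho : Orthonormal ℝ ![u, e, f]) :
    ‖e‖ = 1 ∧ ‖f‖ = 1 ∧ ⟪e, f⟫ = 0 := by
  refine ⟨?_, ?_, ?_⟩
  · simpa using ho.1 1
  · simpa using ho.1 2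
  · simpa using ho.2 (show (1 : Fin 3) ≠ 2 by decide)

/-- change of frame -/
lemma reframe (C : Cylinder) {n : E3} (hn : ‖n‖ = 1) (hun : ⟪C.u, n⟫ = 0) :
    ∃ (m : E3) (B : Set (ℝ × ℝ)), ‖m‖ = 1 ∧ ⟪n, m⟫ = 0 ∧ volume B = C.area ∧
      ∀ x ∈ C.carrier, ((⟪n, x⟫, ⟪m, x⟫) : ℝ × ℝ) ∈ B := by
  obtain ⟨he, hf, hef⟩ := ortho_facts C.orth
  have hfe : ⟪C.f, C.e⟫ = 0 := by rw [real_inner_comm]; exact hef
  have hex := expand C.orth hun
  set α := ⟪C.e, n⟫ with hα
  set β := ⟪C.f, n⟫ with hβ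
  have hee : ⟪C.e, C.e⟫ = 1 := by rw [real_inner_self_eq_norm_sq, he]; norm_num
  have hff : ⟪C.f, C.f⟫ = 1 := by rw [real_inner_self_eq_norm_sq, hf]; norm_num
  have hab : α ^ 2 + β ^ 2 = 1 := by
    have h1 : ⟪n, n⟫ = 1 := by rw [real_inner_self_eq_norm_sq, hn]; norm_num
    have h2 : ⟪n, n⟫ = α ^ 2 + β ^ 2 := by
      conv_lhs => rw [hex]
      simp only [inner_add_left, inner_add_right, inner_smul_left, inner_smul_right, hee, hff, hef,
        hfe, conj_trivial]
      ring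
    rw [← h2, h1]
  refine ⟨(-β) • C.e + α • C.f, (rotm α β) ⁻¹' C.base, ?_, ?_, ?_, ?_⟩
  · have h3 : ⟪(-β) • C.e + α • C.f, (-β) • C.e + α • C.f⟫ = 1 := by
      simp only [inner_add_left, inner_add_right, inner_smul_left, inner_smul_right, hee, hff, hef,
        hfe, conj_trivial]
      nlinarith [hab]
    rw [real_inner_self_eq_norm_sq] at h3
    have h4 := norm_nonneg ((-β) • C.e + α • C.f)
    nlinarith
  · conv_lhs => rw [hex]
    simp only [inner_add_left, inner_add_right, inner_smul_left, inner_smul_right, hee, hff, hef,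
        hfe, conj_trivial]
    ring
  · exact rot_volume hab _
  · intro x hx
    have h5 : ⟪n, x⟫ = α * ⟪C.e, x⟫ + β * ⟪C.f, x⟫ := by
      conv_lhs => rw [hex]
      simp only [inner_add_left, inner_smul_left, conj_trivial]
    have h6 : ⟪(-β) • C.e + α • C.f, x⟫ = -β * ⟪C.e, x⟫ + α * ⟪C.f, x⟫ := by
      simp only [inner_add_left, inner_smul_left, conj_trivial]
    show (α * ⟪n, x⟫ - β * ⟪(-β) • C.e + α • C.f, x⟫,
      β * ⟪n, x⟫ + α * ⟪(-β) • C.e + α • C.f, x⟫) ∈ C.base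
    rw [h5, h6]
    have e1 : α * (α * ⟪C.e, x⟫ + β * ⟪C.f, x⟫) - β * (-β * ⟪C.e, x⟫ + α * ⟪C.f, x⟫)
        = (α ^ 2 + β ^ 2) * ⟪C.e, x⟫ := by ring
    have e2 : β * (α * ⟪C.e, x⟫ + β * ⟪C.f, x⟫) + α * (-β * ⟪C.e, x⟫ + α * ⟪C.f, x⟫)
        = (α ^ 2 + β ^ 2) * ⟪C.f, x⟫ := by ring
    rw [e1, e2, hab, one_mul, one_mul]
    exact hx

theorem half_area {K : Set E3} (hK : Convex ℝ K) (hc : IsCompact K) (hi : (interior K).Nonempty)
    {ι : Type*} [Fintype ι] (C : ι → Cylinder) (hcov : K ⊆ ⋃ i, (C i).carrier)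
    {n : E3} (hn : n ≠ 0) (hcop : ∀ i, ⟪(C i).u, n⟫ = 0) :
    Amin K / 2 ≤ ∑ i, (C i).area := by
  -- unit normal
  have hnp : 0 < ‖n‖ := norm_pos_iff.2 hn
  set k : E3 := (‖n‖)⁻¹ • n with hk
  have hk1 : ‖k‖ = 1 := by rw [hk, norm_smul, norm_inv, norm_norm, inv_mul_cancel₀ hnp.ne']
  have hkk : ⟪k, k⟫ = 1 := by rw [real_inner_self_eq_norm_sq, hk1]; norm_num
  have hcop' : ∀ i, ⟪(C i).u, k⟫ = 0 := by
    intro i; rw [hk, inner_smul_right, hcop i, mul_zero]
  choose m B hm1 hm2 hB1 hB2 using fun i => reframe (C i) hk1 (hcop' i)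
  have hne : K.Nonempty := hi.mono interior_subset
  have hcon : ContinuousOn (fun x : E3 => ⟪k, x⟫) K :=
    (continuous_const.inner continuous_id).continuousOn
  obtain ⟨x0, hx0, hx0'⟩ := hc.exists_isMinOn hne hcon
  obtain ⟨x1, hx1, hx1'⟩ := hc.exists_isMaxOn hne hcon
  have hb : ∀ x ∈ K, ⟪k, x0⟫ ≤ ⟪k, x⟫ ∧ ⟪k, x⟫ ≤ ⟪k, x1⟫ := fun x hx => ⟨hx0' hx, hx1' hx⟩
  have hz : ⟪k, x0⟫ < ⟪k, x1⟫ := by
    obtain ⟨p, hp⟩ := hi
    obtain ⟨ε, hε, hball⟩ := Metric.isOpen_iff.1 isOpen_interior p hp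
    have h1 : p + (ε / 2) • k ∈ K := interior_subset (hball (by
      rw [mem_ball, dist_eq_norm, add_sub_cancel_left, norm_smul, hk1, mul_one, Real.norm_eq_abs,
        abs_of_pos (by positivity)]
      linarith))
    have h2 := (hb _ h1).2
    have h3 := (hb p (interior_subset hp)).1
    rw [inner_add_right, inner_smul_right, hkk] at h2
    linarith
  have hcov' : ∀ x ∈ K, ∃ i, ((⟪k, x⟫, ⟪m i, x⟫) : ℝ × ℝ) ∈ B i := by
    intro x hx
    obtain ⟨i, hi⟩ := mem_iUnion.1 (hcov hx)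
    exact ⟨i, hB2 i x hi⟩
  have hsum : ∑ i, (C i).area = ∑ i, volume (B i) := Finset.sum_congr rfl fun i _ => (hB1 i).symm
  by_contra hlt
  rw [not_le, hsum] at hlt
  obtain ⟨r, hr1, hr2⟩ := ENNReal.lt_iff_exists_nnreal_btwn.1 hlt
  set h := ⟪k, x1⟫ - ⟪k, x0⟫ with hh
  have hpos : 0 < h := by rw [hh]; linarith
  have hr0 : 0 < (r : ℝ) := by
    rcases eq_or_lt_of_le r.2 with h0 | h0
    · exfalso
      have : r = 0 := by ext; exact h0.symm
      rw [this] at hr1
      simp at hr1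
    · exact h0
  have hρ : 0 < 2 * (r : ℝ) / h := by positivity
  rcases dichotomy hK hc hx0 hx1 hz hb m hm1 hm2 B hcov' hρ with h1 | ⟨m', hm', hnm, hvol⟩
  · rw [← hh] at h1
    have e : h / 2 * (2 * (r : ℝ) / h) = r := by field_simp
    rw [e, ENNReal.ofReal_coe_nnreal] at h1
    exact absurd (lt_of_lt_of_le hr1 h1) (lt_irrefl _)
  · rw [← hh] at hvol
    have e : h * (2 * (r : ℝ) / h) = 2 * r := by field_simp
    rw [e] at hvol
    have hon : Orthonormal ℝ ![k, m'] := by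
      rw [orthonormal_iff_ite]
      intro i j
      fin_cases i <;> fin_cases j
      · simpa using hkk
      · simpa using hnm
      · simp only [Fin.mk_one, Fin.isValue, Matrix.cons_val_one, Matrix.cons_val_fin_one,
          Fin.zero_eta, Matrix.cons_val_zero, one_ne_zero, if_false]
        rw [real_inner_comm]; exact hnm
      · simp only [Fin.mk_one, Fin.isValue, Matrix.cons_val_one, Matrix.cons_val_fin_one, if_true]
        rw [real_inner_self_eq_norm_sq, hm']; norm_num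
    have hA : Amin K ≤ ENNReal.ofReal (2 * r) := by
      unfold Amin
      exact (iInf_le_of_le k (iInf_le_of_le m' (iInf_le_of_le hon le_rfl))).trans hvol
    have h2 : ENNReal.ofReal (2 * (r : ℝ)) = 2 * (r : ENNReal) := by
      rw [ENNReal.ofReal_mul (by norm_num), ENNReal.ofReal_coe_nnreal]; simp
    rw [h2] at hA
    have h3 : Amin K / 2 ≤ r := by
      rw [ENNReal.div_le_iff (by norm_num) (by norm_num)]
      rw [mul_comm]; exact hA
    exact absurd (lt_of_lt_of_le hr2 h3) (lt_irrefl _)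

end Vale.Agent.P243
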